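import Vale.Agent.P358.Defs
import Vale.Agent.P358.K.KeyAll
import Vale.Agent.P358.Final

namespace Vale.Agent.Results.P358.GADCapacity

open Matrix Vale.Agent.P358

/-- Additivity of the Holevo capacity of every generalized amplitude-damping channel: the
classical capacity equals the Holevo capacity for all parameters. -/
theorem result (γ ν : ℝ) (hγ₀ : 0 ≤ γ) (hγ₁ : γ ≤ 1) (hν₀ : 0 ≤ ν) (hν₁ : ν ≤ 1) :
    (∀ (n : ℕ) (ρ : Matrix (Fin n → Fin 2) (Fin n → Fin 2) ℂ),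
      IsDensity ρ → IsDensity (tensorPow (gad γ ν) n ρ)) ∧
    BddAbove (holevoSet (gad γ ν)) ∧
    (∀ n : ℕ, BddAbove (holevoSet (tensorPow (gad γ ν) n))) ∧
    (∀ n : ℕ, holevo (tensorPow (gad γ ν) n) = n * holevo (gad γ ν)) ∧
    capacity (gad γ ν) = holevo (gad γ ν) ∧
    IsGreatest (holevoFun γ ν '' Set.Icc 0 1) (capacity (gad γ ν)) := by
  have hγ : γ ∈ Set.Icc (0 : ℝ) 1 := ⟨hγ₀, hγ₁⟩
  have hν : ν ∈ Set.Icc (0 : ℝ) 1 := ⟨hν₀, hν₁⟩
  obtain ⟨h1, h2, h3, h4, h5⟩ := main_of_key hγ hν (key_all hγ hν)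
  refine ⟨fun n ρ hρ => ⟨tensorPow_posSemidef hγ hν hρ.1, ?_⟩, h2, h1, h3, h4, ?_⟩
  · rw [tensorPow_trace]
    exact hρ.2
  · rw [h4]
    exact h5

end Vale.Agent.Results.P358.GADCapacity
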